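import Vale.Agent.P125.Main

/-!
# Markov type `p > 1` implies an equivalent uniformly smooth norm
-/

namespace Vale.Agent.Results.P125.MarkovTypeSmooth

open Vale.Agent.P125

/-- Every real normed space (in particular every real Banach space) with Markov type `p` for
some `p > 1` admits an equivalent uniformly smooth norm. -/
theorem result (X : Type*) [NormedAddCommGroup X] [NormedSpace ℝ X] (p : ℝ) (hp : 1 < p)
    (h : HasMarkovType p X) : HasEquivalentUniformlySmoothNorm X :=
  main hp h

end Vale.Agent.Results.P125.MarkovTypeSmooth
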